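import Mathlib

/-! Part A of the accounting: weighted averages over a finite set of leaves, curves on a nested
family of partitions, grids, types. -/

set_option autoImplicit false

open Finset

namespace Vale.Agent.P315.Acc

open Classical in
/-- Indicator of a proposition. -/
noncomputable def ind (p : Prop) : ℝ := if p then 1 else 0

theorem ind_nonneg (p : Prop) : 0 ≤ ind p := by unfold ind; split_ifs <;> norm_num
theorem ind_le_one (p : Prop) : ind p ≤ 1 := by unfold ind; split_ifs <;> norm_num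
theorem ind_true {p : Prop} (h : p) : ind p = 1 := by simp [ind, h]
theorem ind_false {p : Prop} (h : ¬ p) : ind p = 0 := by simp [ind, h]
theorem ind_congr {p r : Prop} (h : p ↔ r) : ind p = ind r := by rw [propext h]
theorem ind_mono {p r : Prop} (h : p → r) : ind p ≤ ind r := by
  by_cases hp : p
  · rw [ind_true hp, ind_true (h hp)]
  · rw [ind_false hp]; exact ind_nonneg r
theorem ind_and (p r : Prop) : ind (p ∧ r) = ind p * ind r := by
  by_cases hp : p <;> by_cases hr : r <;> simp [ind, hp, hr]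

variable {X : Type} [Fintype X]

/-- Weighted average over the leaves. -/
noncomputable def EE (w f : X → ℝ) : ℝ := (∑ x, w x * f x) / ∑ x, w x

/-- Weighted average over the leaves that have the same ancestor at level `j`. -/
noncomputable def avg (w : X → ℝ) (q : ℕ → X → ℕ) (j : ℕ) (f : X → ℝ) (x : X) : ℝ :=
  (∑ y ∈ univ.filter (fun y => q j y = q j x), w y * f y) /
    ∑ y ∈ univ.filter (fun y => q j y = q j x), w y

section EE

variable {w : X → ℝ}

theorem EE_add (f g : X → ℝ) : EE w (fun x => f x + g x) = EE w f + EE w g := by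
  simp [EE, mul_add, sum_add_distrib, add_div]

theorem EE_sub (f g : X → ℝ) : EE w (fun x => f x - g x) = EE w f - EE w g := by
  simp [EE, mul_sub, sum_sub_distrib, sub_div]

theorem EE_mul_left (c : ℝ) (f : X → ℝ) : EE w (fun x => c * f x) = c * EE w f := by
  simp only [EE, mul_div_assoc']
  congr 1
  rw [mul_sum]
  exact sum_congr rfl fun x _ => by ring

theorem EE_mono (hw : ∀ x, 0 < w x) {f g : X → ℝ} (h : ∀ x, f x ≤ g x) : EE w f ≤ EE w g := by
  unfold EE
  exact div_le_div_of_nonneg_right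
    (sum_le_sum fun x _ => mul_le_mul_of_nonneg_left (h x) (hw x).le)
    (sum_nonneg fun x _ => (hw x).le)

theorem EE_nonneg (hw : ∀ x, 0 < w x) {f : X → ℝ} (h : ∀ x, 0 ≤ f x) : 0 ≤ EE w f := by
  unfold EE
  exact div_nonneg (sum_nonneg fun x _ => mul_nonneg (hw x).le (h x))
    (sum_nonneg fun x _ => (hw x).le)

theorem EE_sum {ι : Type} (s : Finset ι) (f : ι → X → ℝ) :
    EE w (fun x => ∑ i ∈ s, f i x) = ∑ i ∈ s, EE w (f i) := by
  unfold EE
  simp only [mul_sum]
  rw [sum_comm, sum_div]

theorem sum_w_pos [Nonempty X] (hw : ∀ x, 0 < w x) : 0 < ∑ x, w x :=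
  sum_pos (fun x _ => hw x) univ_nonempty

theorem EE_const [Nonempty X] (hw : ∀ x, 0 < w x) (c : ℝ) : EE w (fun _ : X => c) = c := by
  unfold EE
  rw [← sum_mul, mul_div_assoc, mul_comm, div_mul_cancel₀ c (sum_w_pos hw).ne']

end EE

section avg

variable {w : X → ℝ} {q : ℕ → X → ℕ}

theorem w_fib_pos (hw : ∀ x, 0 < w x) (q : ℕ → X → ℕ) (j : ℕ) (x : X) :
    0 < ∑ y ∈ univ.filter (fun y => q j y = q j x), w y :=
  sum_pos (fun y _ => hw y) ⟨x, by simp⟩

theorem avg_congr_pt {j : ℕ} {x y : X} (h : q j x = q j y) (f : X → ℝ) :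
    avg w q j f x = avg w q j f y := by
  unfold avg; rw [h]

theorem avg_mono (hw : ∀ x, 0 < w x) {j : ℕ} {f g : X → ℝ} (x : X)
    (h : ∀ y, q j y = q j x → f y ≤ g y) : avg w q j f x ≤ avg w q j g x := by
  unfold avg
  refine div_le_div_of_nonneg_right (sum_le_sum fun y hy => ?_) (w_fib_pos hw q j x).le
  simp only [mem_filter, mem_univ, true_and] at hy
  exact mul_le_mul_of_nonneg_left (h y hy) (hw y).le

theorem avg_add (j : ℕ) (f g : X → ℝ) (x : X) :
    avg w q j (fun y => f y + g y) x = avg w q j f x + avg w q j g x := by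
  simp [avg, mul_add, sum_add_distrib, add_div]

theorem avg_sub (j : ℕ) (f g : X → ℝ) (x : X) :
    avg w q j (fun y => f y - g y) x = avg w q j f x - avg w q j g x := by
  simp [avg, mul_sub, sum_sub_distrib, sub_div]

theorem avg_mul_left (j : ℕ) (c : ℝ) (f : X → ℝ) (x : X) :
    avg w q j (fun y => c * f y) x = c * avg w q j f x := by
  simp only [avg, mul_div_assoc']
  congr 1
  rw [mul_sum]
  exact sum_congr rfl fun x _ => by ring

theorem avg_sum {ι : Type} (s : Finset ι) (j : ℕ) (f : ι → X → ℝ) (x : X) :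
    avg w q j (fun y => ∑ i ∈ s, f i y) x = ∑ i ∈ s, avg w q j (f i) x := by
  unfold avg
  simp only [mul_sum]
  rw [sum_comm, sum_div]

/-- A function that is constant on the fibre comes out of the average. -/
theorem avg_pull {j : ℕ} {f h : X → ℝ} (x : X) (hh : ∀ y, q j y = q j x → h y = h x) :
    avg w q j (fun y => h y * f y) x = h x * avg w q j f x := by
  unfold avg
  rw [mul_div_assoc', mul_sum]
  congr 1
  refine sum_congr rfl fun y hy => ?_
  simp only [mem_filter, mem_univ, true_and] at hy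
  show w y * (h y * f y) = h x * (w y * f y)
  rw [hh y hy]; ring

theorem avg_const (hw : ∀ x, 0 < w x) {j : ℕ} {h : X → ℝ} (x : X)
    (hh : ∀ y, q j y = q j x → h y = h x) : avg w q j h x = h x := by
  have h1 := avg_pull (w := w) (f := fun _ => (1 : ℝ)) (q := q) x hh
  simp only [mul_one] at h1
  rw [h1]
  unfold avg
  simp only [mul_one]
  rw [div_self (w_fib_pos hw q j x).ne', mul_one]

theorem avg_nonneg (hw : ∀ x, 0 < w x) {j : ℕ} {f : X → ℝ} (x : X)
    (h : ∀ y, q j y = q j x → 0 ≤ f y) : 0 ≤ avg w q j f x := by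
  unfold avg
  refine div_nonneg (sum_nonneg fun y hy => ?_) (w_fib_pos hw q j x).le
  simp only [mem_filter, mem_univ, true_and] at hy
  exact mul_nonneg (hw y).le (h y hy)

/-- Weighted sum of the fibre averages over a union of fibres. -/
theorem sum_avg (hw : ∀ x, 0 < w x) (j : ℕ) (f : X → ℝ) (P : ℕ → Prop) [DecidablePred P] :
    ∑ x ∈ univ.filter (fun x => P (q j x)), w x * avg w q j f x =
      ∑ x ∈ univ.filter (fun x => P (q j x)), w x * f x := by
  classical
  have h1 : ∀ x ∈ univ.filter (fun x => P (q j x)), w x * avg w q j f x =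
      ∑ y ∈ univ.filter (fun x => P (q j x)),
        if q j y = q j x then
          w x * (w y * f y / ∑ z ∈ univ.filter (fun z => q j z = q j y), w z) else 0 := by
    intro x hx
    have hP : P (q j x) := by simpa using hx
    rw [← sum_filter, filter_filter]
    unfold avg
    rw [sum_div, mul_sum]
    refine sum_congr ?_ ?_
    · ext y
      simp only [mem_filter, mem_univ, true_and]
      constructor
      · intro h; exact ⟨by rw [h]; exact hP, h⟩
      · intro h; exact h.2
    · intro y hy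
      have h2 : q j y = q j x := by
        simp only [mem_filter, mem_univ, true_and] at hy
        exact hy.2
      rw [h2]
  rw [sum_congr rfl h1, sum_comm]
  refine sum_congr rfl fun y hy => ?_
  have hP : P (q j y) := by simpa using hy
  have h3 : ∀ x ∈ univ.filter (fun x => P (q j x)),
      (if q j y = q j x then
          w x * (w y * f y / ∑ z ∈ univ.filter (fun z => q j z = q j y), w z) else 0) =
      (if q j x = q j y then
          w x * (w y * f y / ∑ z ∈ univ.filter (fun z => q j z = q j y), w z) else 0) := by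
    intro x _
    by_cases h : q j y = q j x
    · rw [if_pos h, if_pos h.symm]
    · rw [if_neg h, if_neg (fun h' => h h'.symm)]
  rw [sum_congr rfl h3, ← sum_filter, filter_filter]
  have h4 : univ.filter (fun x => P (q j x) ∧ q j x = q j y) =
      univ.filter (fun z => q j z = q j y) := by
    ext z
    simp only [mem_filter, mem_univ, true_and]
    constructor
    · intro h; exact h.2
    · intro h; exact ⟨by rw [h]; exact hP, h⟩
  rw [h4, ← sum_mul]
  have := w_fib_pos hw q j y
  field_simp

theorem EE_avg (hw : ∀ x, 0 < w x) (j : ℕ) (f : X → ℝ) : EE w (avg w q j f) = EE w f := by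
  unfold EE
  have h := sum_avg (q := q) hw j f (fun _ => True)
  simp only [filter_true] at h
  rw [h]

/-- `EE (h · avg f) = EE (h · f)` if `h` is constant on the fibres. -/
theorem EE_pull (hw : ∀ x, 0 < w x) (j : ℕ) {f h : X → ℝ}
    (hh : ∀ x y, q j y = q j x → h y = h x) :
    EE w (fun x => h x * avg w q j f x) = EE w (fun x => h x * f x) := by
  rw [← EE_avg (q := q) hw j (fun x => h x * f x)]
  congr 1
  funext x
  rw [avg_pull x fun y hy => hh x y hy]

/-- Tower property. -/
theorem avg_avg (hw : ∀ x, 0 < w x) {i j : ℕ} (hij : ∀ x y, q i x = q i y → q j x = q j y)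
    (f : X → ℝ) (x : X) : avg w q j (avg w q i f) x = avg w q j f x := by
  classical
  have hP : ∀ y, (q j y = q j x) ↔ (∃ z, q i z = q i y ∧ q j z = q j x) := by
    intro y
    constructor
    · intro h; exact ⟨y, rfl, h⟩
    · rintro ⟨z, h1, h2⟩
      rw [← hij z y h1]; exact h2
  have h := sum_avg (q := q) hw i f (fun c => ∃ z, q i z = c ∧ q j z = q j x)
  have h5 : univ.filter (fun y => q j y = q j x) =
      univ.filter (fun y => ∃ z, q i z = q i y ∧ q j z = q j x) := by
    ext y; simp only [mem_filter, mem_univ, true_and]; exact hP y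
  have h6 : ∑ y ∈ univ.filter (fun y => q j y = q j x), w y * avg w q i f y =
      ∑ y ∈ univ.filter (fun y => q j y = q j x), w y * f y := by
    rw [h5]; exact h
  show (∑ y ∈ univ.filter (fun y => q j y = q j x), w y * avg w q i f y) / _ = _
  rw [h6]
  rfl

end avg

/-- Curves on a nested family of partitions of the leaves. -/
structure Sys (X : Type) [Fintype X] [Nonempty X] where
  /-- number of levels -/
  n : ℕ
  /-- largest scale -/
  smax : ℕ
  /-- number of blocks of the largest scale -/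
  NB : ℕ
  /-- length of the blocks of scale `0` -/
  D0 : ℕ
  /-- weight of a leaf -/
  w : X → ℝ
  /-- ancestor at level `j` -/
  q : ℕ → X → ℕ
  /-- normalised excess of the node of level `j` above the leaf at static index `b` -/
  e : ℕ → X → ℕ → ℝ
  hw : ∀ x, 0 < w x
  hD0 : 0 < D0
  hn : 2 ^ smax ∣ n
  nest : ∀ j x y, q j x = q j y → q (j + 1) x = q (j + 1) y
  meas : ∀ j x y, q j x = q j y → e j x = e j y
  anti : ∀ j x, Antitone (e j x)
  nonneg : ∀ j x b, 0 ≤ e j x b
  le_one : ∀ j x b, e j x b ≤ 1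
  final : ∀ j x b, NB * (16 ^ smax * D0) ≤ b → e j x b = 0
  gain : ∀ j x b, j < n → e (j + 1) x b ≤ avg w q (j + 1) (fun y => e j y b) x

namespace Sys

variable [Nonempty X] (S : Sys X)

/-- Average over all leaves. -/
noncomputable def E (f : X → ℝ) : ℝ := EE S.w f

/-- Average over the leaves below the ancestor at level `j`. -/
noncomputable def av (j : ℕ) (f : X → ℝ) (x : X) : ℝ := avg S.w S.q j f x

/-- Length of the blocks of scale `s`. -/
def D (s : ℕ) : ℕ := 16 ^ s * S.D0

/-- Number of blocks of scale `s`. -/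
def nb (s : ℕ) : ℕ := S.NB * 16 ^ (S.smax - s)

/-- Length of the index window. -/
def T : ℕ := S.NB * S.D S.smax

/-- Number of tops of scale `s` above a leaf. -/
def na (s : ℕ) : ℕ := S.n / 2 ^ s

/-- Average of the units below the top `(a+1) 2^s`. -/
noncomputable def V (s a : ℕ) (x : X) (b : ℕ) : ℝ :=
  S.av ((a + 1) * 2 ^ s) (fun y => S.e (a * 2 ^ s) y b) x

/-- Gain of the top `(a+1) 2^s` over its units. -/
noncomputable def G (s a : ℕ) (x : X) (b : ℕ) : ℝ := S.V s a x b - S.e ((a + 1) * 2 ^ s) x b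

/-- One-level gain. -/
noncomputable def g (j : ℕ) (x : X) (b : ℕ) : ℝ :=
  S.av (j + 1) (fun y => S.e j y b) x - S.e (j + 1) x b

/-- Total gain. -/
noncomputable def Gam : ℝ :=
  ∑ b ∈ range S.T, (S.E (fun x => S.e 0 x b) - S.E (fun x => S.e S.n x b))

/-- First index of block `k` of scale `s` in the grid with offset `o`. -/
def b0 (o s k : ℕ) : ℕ := o + k * S.D s

/-- End of block `k` of scale `s`. -/
def b1 (o s k : ℕ) : ℕ := o + (k + 1) * S.D s

/-- Mass of a node of level `j` in `[b, b')`. -/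
def nu (j : ℕ) (x : X) (b b' : ℕ) : ℝ := S.e j x b - S.e j x b'

/-- Mass of the top in its block. -/
noncomputable def nuT (o s a : ℕ) (x : X) (k : ℕ) : ℝ :=
  S.nu ((a + 1) * 2 ^ s) x (S.b0 o s k) (S.b1 o s k)

/-- Mass of the unit (the one above the leaf) in the block. -/
noncomputable def nuU (o s a : ℕ) (x : X) (k : ℕ) : ℝ :=
  S.nu (a * 2 ^ s) x (S.b0 o s k) (S.b1 o s k)

/-- Average mass of the units in the block. -/
noncomputable def rho (o s a : ℕ) (x : X) (k : ℕ) : ℝ :=
  S.V s a x (S.b0 o s k) - S.V s a x (S.b1 o s k)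

/-- The block is light at its own scale. -/
def light (th : ℕ → ℝ) (o s a : ℕ) (x : X) (k : ℕ) : Prop := S.nuT o s a x k < th s

/-- The block (of scale `s`) has type `s`: light, and all its ancestors are heavy. -/
def ty (th : ℕ → ℝ) (o s a : ℕ) (x : X) (k : ℕ) : Prop :=
  S.light th o s a x k ∧ ∀ t, s < t → t ≤ S.smax →
    ¬ S.light th o t (a / 2 ^ (t - s)) x (k / 16 ^ (t - s))

/-- The block (of scale `s`) has type `t ≥ s`. -/
def tyt (th : ℕ → ℝ) (o s t a : ℕ) (x : X) (k : ℕ) : Prop :=
  S.ty th o t (a / 2 ^ (t - s)) x (k / 16 ^ (t - s))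

/-- The block of scale `0` is heavy at all scales. -/
def hv (th : ℕ → ℝ) (o a : ℕ) (x : X) (k : ℕ) : Prop :=
  ∀ t, t ≤ S.smax → ¬ S.light th o t (a / 2 ^ t) x (k / 16 ^ t)

/-- Average over the offsets of the grid. -/
noncomputable def avO (f : ℕ → ℝ) : ℝ := (∑ o ∈ range (S.D S.smax), f o) / (S.D S.smax : ℝ)

end Sys

/-- Machine data and the two-sided bound (H3a). -/
structure Mach {X : Type} [Fintype X] [Nonempty X] (S : Sys X) where
  /-- value seen by the machines of the top `(a+1) 2^s` -/
  om : ℕ → ℕ → X → ℕ → ℝ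
  /-- precision -/
  tau : ℕ → ℝ
  omMeas : ∀ s a x y, S.q ((a + 1) * 2 ^ s) x = S.q ((a + 1) * 2 ^ s) y → om s a x = om s a y
  omAnti : ∀ s a x, Antitone (om s a x)
  tau_nonneg : ∀ s, 0 ≤ tau s
  le_om : ∀ s a x b, s ≤ S.smax → a < S.na s → S.e ((a + 1) * 2 ^ s) x b ≤ om s a x b + tau s
  om_le : ∀ s a x b, s ≤ S.smax → a < S.na s → om s a x b ≤ S.V s a x b + tau s

namespace Mach

variable [Nonempty X] {S : Sys X} (R : Mach S)

/-- Drop of the machine value in a block. -/
noncomputable def m (o s a : ℕ) (x : X) (k : ℕ) : ℝ :=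
  R.om s a x (S.b0 o s k) - R.om s a x (S.b1 o s k)

/-- The block has class `l`. -/
def cls (o s a l : ℕ) (x : X) (k : ℕ) : Prop :=
  (1 / 2 : ℝ) ^ (l + 1) ≤ R.m o s a x k ∧ R.m o s a x k < (1 / 2 : ℝ) ^ l

/-- The block is active for the thresholds `th`, visibility `vth`. -/
def act (vth th : ℕ → ℝ) (o s a : ℕ) (x : X) (k : ℕ) : Prop :=
  ∃ l, vth s ≤ (1 / 2 : ℝ) ^ l ∧ (1 / 2 : ℝ) ^ l ≤ 4 * th s ∧ R.cls o s a l x k

/-- Left side of the machine inequality of a block: mass of the good units with mass at most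
`C7 m` in the windows of length `2^s` inside the block. -/
noncomputable def lhs (C7 : ℝ) (good : ℕ → ℕ → X → Prop) (o s a : ℕ) (x : X) (k : ℕ) : ℝ :=
  ∑ i ∈ range (S.D s + 1 - 2 ^ s), S.av ((a + 1) * 2 ^ s) (fun y =>
    S.nu (a * 2 ^ s) y (S.b0 o s k + i) (S.b0 o s k + i + 2 ^ s) *
      ind (S.nuU o s a y k ≤ C7 * R.m o s a x k ∧ good s a y)) x

/-- The machine inequality (H3b) for one top, offset and class, outside the failure set. -/
def H3b (C7 : ℝ) (L : ℕ → ℝ) (good : ℕ → ℕ → X → Prop) (Cap : ℕ → ℕ → ℕ → ℕ → X → ℝ)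
    (Fail : ℕ → ℕ → ℕ → ℕ → X → Prop) (o s a l : ℕ) : Prop :=
  ∀ x, ¬ Fail o s a l x → ∀ A : Finset ℕ, (∀ k ∈ A, k < S.nb s ∧ R.cls o s a l x k) →
    ∑ k ∈ A, R.lhs C7 good o s a x k ≤
      2 * ∑ k ∈ A, ∑ i ∈ range (S.D s), S.G s a x (S.b0 o s k + i) +
      2 ^ s * L s * (∑ k ∈ (range (S.nb s)).filter (fun k => k ∉ A),
        ind (R.cls o s a l x k) * R.m o s a x k) + Cap o s a l x

end Mach

end Vale.Agent.P315.Acc
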