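import Vale.Agent.P315.H679.AccDefs

/-! Further definitions of the accounting (plan 2). -/

set_option autoImplicit false

open Finset

namespace Vale.Agent.P315.Acc

variable {X : Type} [Fintype X] [Nonempty X]

namespace Sys

variable (S : Sys X)

/-- Total gain of the tops of scale `s` at the starts of the blocks of the grid of scale `s'`. -/
noncomputable def GG0 (o s s' : ℕ) : ℝ :=
  ∑ a ∈ range (S.na s), ∑ k ∈ range (S.nb s'), S.E (fun x => S.G s a x (S.b0 o s' k))

/-- Total gain of the tops of scale `s` at the ends of the blocks of the grid of scale `s'`. -/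
noncomputable def GG1 (o s s' : ℕ) : ℝ :=
  ∑ a ∈ range (S.na s), ∑ k ∈ range (S.nb s'), S.E (fun x => S.G s a x (S.b1 o s' k))

/-- Mass of the unit near the two ends of the block. -/
noncomputable def edge (o s a : ℕ) (x : X) (k : ℕ) : ℝ :=
  S.nu (a * 2 ^ s) x (S.b0 o s k) (S.b0 o s k + 2 ^ s) +
    S.nu (a * 2 ^ s) x (S.b1 o s k - 2 ^ s) (S.b1 o s k)

/-- Mass in blocks of scale `0` in which the children of the node have average mass at least
half of the threshold. -/
noncomputable def bad0 (t0 : ℝ) (o : ℕ) : ℝ :=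
  ∑ j ∈ range S.n, ∑ k ∈ range (S.nb 0), S.E (fun x =>
    S.nuU o 0 j x k * ind (t0 / 2 ≤ S.rho o 0 j x k))

end Sys

namespace Mach

variable {S : Sys X} (R : Mach S)

/-- the classes used at scale `s` -/
def okc (th th' : ℕ → ℝ) (s l : ℕ) : Prop :=
  3 / 4 * th s < (1 / 2 : ℝ) ^ l ∧ (1 / 2 : ℝ) ^ (l + 1) ≤ 5 / 4 * th' s

/-- the block is active -/
def actv (th th' : ℕ → ℝ) (o s a : ℕ) (x : X) (k : ℕ) : Prop :=
  ∃ l, okc th th' s l ∧ R.cls o s a l x k

/-- the block is tight -/
def tight (o s a : ℕ) (x : X) (k : ℕ) : Prop :=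
  S.G s a x (S.b0 o s k) + S.G s a x (S.b1 o s k) + 2 * R.tau s ≤ S.nuT o s a x k / 4

/-- the block is stable upwards -/
def ups (_R : Mach S) (th' : ℕ → ℝ) (o s a : ℕ) (x : X) (k : ℕ) : Prop :=
  ∀ t, s + 2 ≤ t → t ≤ S.smax → 4 * th' t ≤ S.nuT o t (a / 2 ^ (t - s)) x (k / 16 ^ (t - s))

/-- the blocks in which the machines harvest -/
def inA (th th' : ℕ → ℝ) (o s a : ℕ) (x : X) (k : ℕ) : Prop :=
  R.actv th th' o s a x k ∧ R.tight o s a x k ∧ R.ups th' o s a x k

/-- active, tight, not stable upwards -/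
def unst (th th' : ℕ → ℝ) (o s a : ℕ) (x : X) (k : ℕ) : Prop :=
  R.actv th th' o s a x k ∧ R.tight o s a x k ∧ ¬ R.ups th' o s a x k

end Mach

end Vale.Agent.P315.Acc
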