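import Vale.Agent.P315.H679.AccDefs2

/-! Basic facts on curves and averages (plan 2, B1). -/

set_option autoImplicit false

open Finset

namespace Vale.Agent.P315.Acc

variable {X : Type} [Fintype X] [Nonempty X]

namespace Sys

variable (S : Sys X)

theorem nestLe {i j : ℕ} (h : i ≤ j) (x y : X) (hq : S.q i x = S.q i y) : S.q j x = S.q j y := by
  induction h with
  | refl => exact hq
  | step _ ih => exact S.nest _ x y ih

/-! ### averages of the system -/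

theorem E_add (f g : X → ℝ) : S.E (fun x => f x + g x) = S.E f + S.E g := EE_add f g
theorem E_sub (f g : X → ℝ) : S.E (fun x => f x - g x) = S.E f - S.E g := EE_sub f g
theorem E_mul_left (c : ℝ) (f : X → ℝ) : S.E (fun x => c * f x) = c * S.E f := EE_mul_left c f
theorem E_mono {f g : X → ℝ} (h : ∀ x, f x ≤ g x) : S.E f ≤ S.E g := EE_mono S.hw h
theorem E_nonneg {f : X → ℝ} (h : ∀ x, 0 ≤ f x) : 0 ≤ S.E f := EE_nonneg S.hw h
theorem E_sum {ι : Type} (s : Finset ι) (f : ι → X → ℝ) :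
    S.E (fun x => ∑ i ∈ s, f i x) = ∑ i ∈ s, S.E (f i) := EE_sum s f
theorem E_const (c : ℝ) : S.E (fun _ : X => c) = c := EE_const S.hw c
theorem E_congr {f g : X → ℝ} (h : ∀ x, f x = g x) : S.E f = S.E g := by
  rw [show f = g from funext h]

theorem av_add (j : ℕ) (f g : X → ℝ) (x : X) :
    S.av j (fun y => f y + g y) x = S.av j f x + S.av j g x := avg_add j f g x
theorem av_sub (j : ℕ) (f g : X → ℝ) (x : X) :
    S.av j (fun y => f y - g y) x = S.av j f x - S.av j g x := avg_sub j f g x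
theorem av_mul_left (j : ℕ) (c : ℝ) (f : X → ℝ) (x : X) :
    S.av j (fun y => c * f y) x = c * S.av j f x := avg_mul_left j c f x
theorem av_sum {ι : Type} (s : Finset ι) (j : ℕ) (f : ι → X → ℝ) (x : X) :
    S.av j (fun y => ∑ i ∈ s, f i y) x = ∑ i ∈ s, S.av j (f i) x := avg_sum s j f x
theorem av_mono {j : ℕ} {f g : X → ℝ} (x : X) (h : ∀ y, S.q j y = S.q j x → f y ≤ g y) :
    S.av j f x ≤ S.av j g x := avg_mono S.hw x h
theorem av_nonneg {j : ℕ} {f : X → ℝ} (x : X) (h : ∀ y, S.q j y = S.q j x → 0 ≤ f y) :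
    0 ≤ S.av j f x := avg_nonneg S.hw x h
theorem av_pull {j : ℕ} {f h : X → ℝ} (x : X) (hh : ∀ y, S.q j y = S.q j x → h y = h x) :
    S.av j (fun y => h y * f y) x = h x * S.av j f x := avg_pull x hh
theorem av_const {j : ℕ} {h : X → ℝ} (x : X) (hh : ∀ y, S.q j y = S.q j x → h y = h x) :
    S.av j h x = h x := avg_const S.hw x hh
theorem av_congr_pt {j : ℕ} {x y : X} (h : S.q j x = S.q j y) (f : X → ℝ) :
    S.av j f x = S.av j f y := avg_congr_pt h f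
theorem E_av (j : ℕ) (f : X → ℝ) : S.E (S.av j f) = S.E f := EE_avg S.hw j f
theorem E_pull (j : ℕ) {f h : X → ℝ} (hh : ∀ x y, S.q j y = S.q j x → h y = h x) :
    S.E (fun x => h x * S.av j f x) = S.E (fun x => h x * f x) := EE_pull S.hw j hh
theorem av_av {i j : ℕ} (hij : i ≤ j) (f : X → ℝ) (x : X) :
    S.av j (S.av i f) x = S.av j f x := avg_avg S.hw (fun x y h => S.nestLe hij x y h) f x

/-! ### F1 -/

theorem e_meas {j : ℕ} {x y : X} (h : S.q j x = S.q j y) (b : ℕ) : S.e j x b = S.e j y b := by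
  rw [S.meas j x y h]

theorem e_le_av {i j : ℕ} (hij : i ≤ j) (hj : j ≤ S.n) (x : X) (b : ℕ) :
    S.e j x b ≤ S.av j (fun y => S.e i y b) x := by
  induction j, hij using Nat.le_induction generalizing x with
  | base =>
    rw [S.av_const x fun y hy => S.e_meas hy b]
  | succ j hij ih =>
    refine (S.gain j x b (by omega)).trans ?_
    have h1 : S.av (j + 1) (fun y => S.e j y b) x ≤
        S.av (j + 1) (S.av j (fun y => S.e i y b)) x :=
      S.av_mono x fun y _ => ih (by omega) y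
    rw [S.av_av (Nat.le_succ j)] at h1
    exact h1

theorem av_le_V {s a j : ℕ} (h1 : a * 2 ^ s ≤ j) (h2 : j ≤ (a + 1) * 2 ^ s)
    (hn : (a + 1) * 2 ^ s ≤ S.n) (x : X) (b : ℕ) :
    S.av ((a + 1) * 2 ^ s) (fun y => S.e j y b) x ≤ S.V s a x b := by
  have h3 : S.av ((a + 1) * 2 ^ s) (fun y => S.e j y b) x ≤
      S.av ((a + 1) * 2 ^ s) (S.av j (fun y => S.e (a * 2 ^ s) y b)) x :=
    S.av_mono x fun y _ => S.e_le_av h1 (h2.trans hn) y b
  rw [S.av_av h2] at h3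
  exact h3

theorem G_nonneg {s a : ℕ} (hn : (a + 1) * 2 ^ s ≤ S.n) (x : X) (b : ℕ) : 0 ≤ S.G s a x b := by
  have h := S.e_le_av (i := a * 2 ^ s) (j := (a + 1) * 2 ^ s)
    (Nat.mul_le_mul_right _ (Nat.le_succ a)) hn x b
  unfold G V
  linarith

theorem top_le {s a : ℕ} (_hs : s ≤ S.smax) (ha : a < S.na s) : (a + 1) * 2 ^ s ≤ S.n := by
  have h : (a + 1) * 2 ^ s ≤ S.na s * 2 ^ s := Nat.mul_le_mul_right _ ha
  exact h.trans (Nat.div_mul_le_self _ _)

theorem na_mul {s : ℕ} (hs : s ≤ S.smax) : S.na s * 2 ^ s = S.n :=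
  Nat.div_mul_cancel ((pow_dvd_pow 2 hs).trans S.hn)

theorem nb_mul {s t : ℕ} (hst : s ≤ t) (ht : t ≤ S.smax) : S.nb s = S.nb t * 16 ^ (t - s) := by
  unfold nb
  rw [mul_assoc, ← pow_add]
  congr 2
  omega

theorem D_pos (s : ℕ) : 0 < S.D s := Nat.mul_pos (by positivity) S.hD0

theorem D_mul {s t : ℕ} (hst : s ≤ t) : S.D t = 16 ^ (t - s) * S.D s := by
  unfold D
  rw [← mul_assoc, ← pow_add]
  congr 2
  omega

theorem nb_mul_D {s : ℕ} (hs : s ≤ S.smax) : S.nb s * S.D s = S.T := by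
  unfold nb T
  rw [S.D_mul hs]; ring

theorem b1_eq (o s k : ℕ) : S.b1 o s k = S.b0 o s (k + 1) := rfl

theorem b0_le_b1 (o s k : ℕ) : S.b0 o s k ≤ S.b1 o s k := by
  unfold b0 b1
  have := S.D_pos s
  nlinarith

theorem b1_eq_add (o s k : ℕ) : S.b1 o s k = S.b0 o s k + S.D s := by
  unfold b0 b1; ring

theorem nu_nonneg (j : ℕ) (x : X) {b b' : ℕ} (h : b ≤ b') : 0 ≤ S.nu j x b b' := by
  unfold nu
  linarith [S.anti j x h]

theorem nu_meas {j : ℕ} {x y : X} (h : S.q j x = S.q j y) (b b' : ℕ) :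
    S.nu j x b b' = S.nu j y b b' := by
  unfold nu; rw [S.meas j x y h]

theorem nu_le_one (j : ℕ) (x : X) (b b' : ℕ) : S.nu j x b b' ≤ 1 := by
  unfold nu
  linarith [S.le_one j x b, S.nonneg j x b']

theorem nuT_nonneg (o s a : ℕ) (x : X) (k : ℕ) : 0 ≤ S.nuT o s a x k :=
  S.nu_nonneg _ x (S.b0_le_b1 o s k)

theorem nuU_nonneg (o s a : ℕ) (x : X) (k : ℕ) : 0 ≤ S.nuU o s a x k :=
  S.nu_nonneg _ x (S.b0_le_b1 o s k)

theorem V_anti (s a : ℕ) (x : X) : Antitone (S.V s a x) := by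
  intro b b' h
  exact S.av_mono x fun y _ => S.anti _ y h

theorem V_nonneg (s a : ℕ) (x : X) (b : ℕ) : 0 ≤ S.V s a x b :=
  S.av_nonneg x fun y _ => S.nonneg _ y b

theorem rho_nonneg (o s a : ℕ) (x : X) (k : ℕ) : 0 ≤ S.rho o s a x k := by
  unfold rho
  linarith [S.V_anti s a x (S.b0_le_b1 o s k)]

theorem V_meas (s a : ℕ) {x y : X} (h : S.q ((a + 1) * 2 ^ s) x = S.q ((a + 1) * 2 ^ s) y) :
    S.V s a x = S.V s a y := by
  funext b
  exact S.av_congr_pt h _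

theorem G_meas (s a : ℕ) {x y : X} (h : S.q ((a + 1) * 2 ^ s) x = S.q ((a + 1) * 2 ^ s) y) :
    S.G s a x = S.G s a y := by
  funext b
  unfold G
  rw [S.V_meas s a h, S.meas _ x y h]

theorem rho_meas (o s a : ℕ) {x y : X} (h : S.q ((a + 1) * 2 ^ s) x = S.q ((a + 1) * 2 ^ s) y)
    (k : ℕ) : S.rho o s a x k = S.rho o s a y k := by
  unfold rho; rw [S.V_meas s a h]

/-- The top of scale `t` above the top `(a+1) 2^s`. -/
theorem anc_le {s t : ℕ} (hst : s ≤ t) (a : ℕ) :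
    (a + 1) * 2 ^ s ≤ (a / 2 ^ (t - s) + 1) * 2 ^ t := by
  have h1 : a + 1 ≤ (a / 2 ^ (t - s) + 1) * 2 ^ (t - s) := by
    have := Nat.lt_div_mul_add (a := a) (b := 2 ^ (t - s)) (by positivity)
    nlinarith
  calc (a + 1) * 2 ^ s ≤ ((a / 2 ^ (t - s) + 1) * 2 ^ (t - s)) * 2 ^ s :=
        Nat.mul_le_mul_right _ h1
    _ = (a / 2 ^ (t - s) + 1) * 2 ^ t := by
        rw [mul_assoc, ← pow_add]; congr 2; omega

/-- The mass of an ancestor top is measurable. -/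
theorem nuT_meas (o : ℕ) {s t a : ℕ} (hst : s ≤ t) {x y : X}
    (h : S.q ((a + 1) * 2 ^ s) x = S.q ((a + 1) * 2 ^ s) y) (k : ℕ) :
    S.nuT o t (a / 2 ^ (t - s)) x k = S.nuT o t (a / 2 ^ (t - s)) y k :=
  S.nu_meas (S.nestLe (anc_le hst a) x y h) _ _

theorem nuT_meas' (o : ℕ) {s a : ℕ} {x y : X}
    (h : S.q ((a + 1) * 2 ^ s) x = S.q ((a + 1) * 2 ^ s) y) (k : ℕ) :
    S.nuT o s a x k = S.nuT o s a y k := S.nu_meas h _ _

theorem rho_eq (o s a : ℕ) (x : X) (k : ℕ) :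
    S.rho o s a x k =
      S.nuT o s a x k + S.G s a x (S.b0 o s k) - S.G s a x (S.b1 o s k) := by
  unfold rho nuT nu G; ring

theorem rho_eq_av (o s a : ℕ) (x : X) (k : ℕ) :
    S.rho o s a x k = S.av ((a + 1) * 2 ^ s) (fun y => S.nuU o s a y k) x := by
  unfold rho nuU nu V
  rw [S.av_sub]

theorem sum_nu_consec (o s j : ℕ) (x : X) (k0 N : ℕ) :
    ∑ i ∈ range N, S.nu j x (S.b0 o s (k0 + i)) (S.b1 o s (k0 + i)) =
      S.nu j x (S.b0 o s k0) (S.b0 o s (k0 + N)) := by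
  induction N with
  | zero => simp [nu]
  | succ N ih =>
    rw [sum_range_succ, ih]
    unfold nu
    rw [S.b1_eq]
    ring_nf

theorem sum_nu_block (o : ℕ) {s : ℕ} (hs : s ≤ S.smax) (j : ℕ) (x : X) :
    ∑ k ∈ range (S.nb s), S.nu j x (S.b0 o s k) (S.b1 o s k) = S.e j x o := by
  have h := S.sum_nu_consec o s j x 0 (S.nb s)
  simp only [zero_add] at h
  rw [h]
  unfold nu b0
  rw [S.nb_mul_D hs, zero_mul, add_zero]
  rw [S.final j x (o + S.T) (by unfold T D; omega)]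
  ring

/-- Sub-blocks: the blocks of scale `s` inside block `k` of scale `t` partition it. -/
theorem sum_sub_block (o : ℕ) {s t : ℕ} (hst : s ≤ t) (j : ℕ) (x : X) (k : ℕ) :
    ∑ i ∈ range (16 ^ (t - s)), S.nu j x (S.b0 o s (k * 16 ^ (t - s) + i))
      (S.b1 o s (k * 16 ^ (t - s) + i)) = S.nu j x (S.b0 o t k) (S.b1 o t k) := by
  rw [S.sum_nu_consec]
  have h1 : S.b0 o s (k * 16 ^ (t - s)) = S.b0 o t k := by
    unfold b0; rw [S.D_mul hst]; ring
  have h2 : S.b0 o s (k * 16 ^ (t - s) + 16 ^ (t - s)) = S.b1 o t k := by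
    unfold b0 b1; rw [S.D_mul hst]; ring
  rw [h1, h2]

theorem av_nu_le {s a j : ℕ} (h1 : a * 2 ^ s ≤ j) (h2 : j ≤ (a + 1) * 2 ^ s)
    (hn : (a + 1) * 2 ^ s ≤ S.n) (o : ℕ) (x : X) (k : ℕ) :
    S.av ((a + 1) * 2 ^ s) (fun y => S.nu j y (S.b0 o s k) (S.b1 o s k)) x ≤
      S.nuT o s a x k + S.G s a x (S.b0 o s k) ∧
    S.av ((a + 1) * 2 ^ s) (fun y => S.nu j y (S.b0 o s k) (S.b1 o s k)) x ≤
      S.rho o s a x k + S.G s a x (S.b1 o s k) := by
  have h3 := S.av_le_V h1 h2 hn x (S.b0 o s k)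
  have h4 := S.e_le_av h2 hn x (S.b1 o s k)
  have h5 : S.av ((a + 1) * 2 ^ s) (fun y => S.nu j y (S.b0 o s k) (S.b1 o s k)) x =
      S.av ((a + 1) * 2 ^ s) (fun y => S.e j y (S.b0 o s k)) x -
      S.av ((a + 1) * 2 ^ s) (fun y => S.e j y (S.b1 o s k)) x := by
    unfold nu; rw [S.av_sub]
  constructor
  · rw [h5]; unfold nuT nu G; linarith
  · rw [h5]; unfold rho G; linarith

theorem e_zero_of_le {j : ℕ} (x : X) {b : ℕ} (h : S.T ≤ b) : S.e j x b = 0 :=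
  S.final j x b (by unfold T D at h; exact h)

theorem G_zero_of_le (s a : ℕ) (x : X) {b : ℕ} (h : S.T ≤ b) : S.G s a x b = 0 := by
  have h1 : S.V s a x b = 0 := by
    unfold V
    rw [show (fun y => S.e (a * 2 ^ s) y b) = fun _ => (0 : ℝ) from
      funext fun y => S.e_zero_of_le y h]
    rw [S.av_const x fun _ _ => rfl]
  unfold G
  rw [h1, S.e_zero_of_le x h]; ring

theorem E_G (s a b : ℕ) : S.E (fun x => S.G s a x b) =
    S.E (fun x => S.e (a * 2 ^ s) x b) - S.E (fun x => S.e ((a + 1) * 2 ^ s) x b) := by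
  unfold G
  rw [S.E_sub]
  congr 1
  exact S.E_av _ _

/-- (A1) -/
theorem stepA1 {s : ℕ} (hs : s ≤ S.smax) :
    ∑ a ∈ range (S.na s), ∑ b ∈ range S.T, S.E (fun x => S.G s a x b) = S.Gam := by
  rw [sum_comm]
  unfold Gam
  refine sum_congr rfl fun b _ => ?_
  simp only [S.E_G]
  rw [sum_range_sub' (fun a => S.E (fun x => S.e (a * 2 ^ s) x b)), S.na_mul hs, zero_mul]

theorem Gam_nonneg : 0 ≤ S.Gam := by
  rw [← S.stepA1 (le_refl S.smax)]
  refine sum_nonneg fun a ha => sum_nonneg fun b _ => S.E_nonneg fun x => ?_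
  exact S.G_nonneg (S.top_le le_rfl (by simpa using ha)) x b

theorem GG0_nonneg {o s s' : ℕ} (hs : s ≤ S.smax) : 0 ≤ S.GG0 o s s' :=
  sum_nonneg fun a ha => sum_nonneg fun k _ => S.E_nonneg fun x =>
    S.G_nonneg (S.top_le hs (by simpa using ha)) x _

theorem GG1_nonneg {o s s' : ℕ} (hs : s ≤ S.smax) : 0 ≤ S.GG1 o s s' :=
  sum_nonneg fun a ha => sum_nonneg fun k _ => S.E_nonneg fun x =>
    S.G_nonneg (S.top_le hs (by simpa using ha)) x _

end Sys

end Vale.Agent.P315.Acc
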