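import Vale.Agent.P315.H241.Edge
import Vale.Agent.P315.H587.Tight
import Vale.Agent.P315.H295.Mult

/-! P315, Part A: the accounting theorem for one offset, with an arbitrary family of active
blocks (union form of the machine inequality). -/

set_option autoImplicit false

open Finset

namespace Vale.Agent.P315.Acc

variable {X : Type} [Fintype X] [Nonempty X]

namespace Mach

variable {S : Sys X} (R : Mach S)

/-- The blocks on which the machine inequality is used: active, tight, up-stable. -/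
def AU (c : ℕ → ℝ) (act : ℕ → ℕ → X → ℕ → Prop) (o s a : ℕ) (x : X) (k : ℕ) : Prop :=
  act s a x k ∧ R.tight o s a x k ∧ S.upst (fun t => 5 / 4 * c t) o s a x k

/-- Hypotheses of the accounting theorem, one offset. -/
structure UForm (o : ℕ) (C7 : ℝ) (th th' c L : ℕ → ℝ) (good : ℕ → ℕ → X → Prop)
    (act : ℕ → ℕ → X → ℕ → Prop) (Fail : ℕ → ℕ → X → Prop) (Cap : ℕ → ℕ → X → ℝ)
    (Ls : ℕ → Finset ℕ) : Prop where
  c7 : 8 ≤ C7
  th_pos : ∀ s, 0 < th s
  th'_pos : ∀ s, 0 < th' s
  c_nonneg : ∀ s, 0 ≤ c s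
  c_le : ∀ s, 1 ≤ s → s ≤ S.smax → 4 * c s ≤ 1
  tau_le : ∀ s, 1 ≤ s → s ≤ S.smax → 1000 * R.tau s ≤ th s
  c_th : ∀ s t, 1 ≤ s → s + 2 ≤ t → t ≤ S.smax → 100 * c t ≤ th s
  L_nonneg : ∀ s, 0 ≤ L s
  Cap_nonneg : ∀ s a x, 0 ≤ Cap s a x
  act_meas : ∀ s a x y k, S.q ((a + 1) * 2 ^ s) x = S.q ((a + 1) * 2 ^ s) y →
    (act s a x k ↔ act s a y k)
  act1 : ∀ s a x k, 1 ≤ s → s ≤ S.smax → a < S.na s → k < S.nb s →
    3 / 4 * th s ≤ R.m o s a x k → R.m o s a x k ≤ 5 / 4 * th' s → act s a x k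
  act2 : ∀ s a x k, 1 ≤ s → s ≤ S.smax → a < S.na s → k < S.nb s → act s a x k →
    3 / 8 * th s ≤ R.m o s a x k ∧ R.m o s a x k ≤ 3 * c s
  cls : ∀ s l : ℕ, 1 ≤ s → s ≤ S.smax → 3 / 8 * th s ≤ (1 / 2 : ℝ) ^ l →
    (1 / 2 : ℝ) ^ l ≤ 6 * c s → l ∈ Ls s
  h3b : ∀ s a x, 1 ≤ s → s ≤ S.smax → a < S.na s → ¬ Fail s a x →
    ∀ A : Finset ℕ, (∀ k ∈ A, k < S.nb s ∧ act s a x k) →
    ∑ k ∈ A, R.lhs C7 good o s a x k ≤
      2 * ∑ k ∈ A, ∑ i ∈ range (S.D s), S.G s a x (S.b0 o s k + i) +
      2 ^ s * L s * (∑ k ∈ (range (S.nb s)).filter (fun k => k ∉ A),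
        ind (act s a x k) * R.m o s a x k) + Cap s a x

section meas

omit [Nonempty X] in
theorem ind_or_le (p r : Prop) : ind (p ∨ r) ≤ ind p + ind r := by
  by_cases hp : p
  · rw [ind_true (Or.inl hp), ind_true hp]; have := ind_nonneg r; linarith
  · by_cases hr : r
    · rw [ind_true (Or.inr hr), ind_true hr]; have := ind_nonneg p; linarith
    · rw [ind_false (by tauto), ind_false hp, ind_false hr]; norm_num

end meas

variable {R} {o : ℕ} {C7 : ℝ} {th th' c L : ℕ → ℝ} {good : ℕ → ℕ → X → Prop}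
  {act : ℕ → ℕ → X → ℕ → Prop} {Fail : ℕ → ℕ → X → Prop} {Cap : ℕ → ℕ → X → ℝ}
  {Ls : ℕ → Finset ℕ}

theorem G_congr (S : Sys X) (s a : ℕ) {x y : X}
    (h : S.q ((a + 1) * 2 ^ s) x = S.q ((a + 1) * 2 ^ s) y) (b : ℕ) :
    S.G s a x b = S.G s a y b := by
  unfold Sys.G Sys.V
  rw [S.av_congr_pt h, S.meas _ _ _ h]

theorem AU_meas (H : UForm R o C7 th th' c L good act Fail Cap Ls) (s a : ℕ) (x y : X) (k : ℕ)
    (h : S.q ((a + 1) * 2 ^ s) x = S.q ((a + 1) * 2 ^ s) y) :
    R.AU c act o s a x k ↔ R.AU c act o s a y k := by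
  have key : ∀ x y : X, S.q ((a + 1) * 2 ^ s) x = S.q ((a + 1) * 2 ^ s) y →
      R.AU c act o s a x k → R.AU c act o s a y k := by
    intro x y h hA
    refine ⟨(H.act_meas s a x y k h).1 hA.1, ?_, ?_⟩
    · have h1 := hA.2.1
      unfold tight at h1 ⊢
      rw [← G_congr S s a h, ← G_congr S s a h, ← H241.nuT_meas S o s a k le_rfl h]
      exact h1
    · intro t h1 h2
      have h3 := hA.2.2 t h1 h2
      have hlev : (a + 1) * 2 ^ s ≤ (a / 2 ^ (t - s) + 1) * 2 ^ t := by
        have h4 : a + 1 ≤ (a / 2 ^ (t - s) + 1) * 2 ^ (t - s) := by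
          have := Nat.lt_succ_iff.1 (Nat.lt_succ_of_lt (Nat.lt_succ_self a))
          have h5 := Nat.div_add_mod a (2 ^ (t - s))
          have h6 := Nat.mod_lt a (show 0 < 2 ^ (t - s) by positivity)
          rw [add_mul, one_mul, mul_comm]
          omega
        calc (a + 1) * 2 ^ s ≤ (a / 2 ^ (t - s) + 1) * 2 ^ (t - s) * 2 ^ s :=
              Nat.mul_le_mul_right _ h4
          _ = (a / 2 ^ (t - s) + 1) * 2 ^ t := by
              rw [mul_assoc, ← pow_add]; congr 2; omega
      rw [← H241.nuT_meas S o t (a / 2 ^ (t - s)) (k / 16 ^ (t - s)) hlev h]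
      exact h3
  exact ⟨key x y h, key y x h.symm⟩

theorem AU_nuT_le (H : UForm R o C7 th th' c L good act Fail Cap Ls) {s a k : ℕ} {x : X}
    (h1 : 1 ≤ s) (hs : s ≤ S.smax) (ha : a < S.na s) (hk : k < S.nb s)
    (hA : R.AU c act o s a x k) : S.nuT o s a x k ≤ 4 * c s := by
  have h3 := (H.act2 s a x k h1 hs ha hk hA.1).2
  have h4 := R.tight_le_m hs ha hA.2.1
  linarith

theorem AU_th_le (H : UForm R o C7 th th' c L good act Fail Cap Ls) {s a k : ℕ} {x : X}
    (h1 : 1 ≤ s) (hs : s ≤ S.smax) (ha : a < S.na s) (hk : k < S.nb s)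
    (hact : act s a x k) (ht : R.tight o s a x k) : 3 / 10 * th s ≤ S.nuT o s a x k := by
  have h3 := (H.act2 s a x k h1 hs ha hk hact).1
  have h4 := R.tight_m_le hs ha ht
  linarith

/-- No block of the family lies in a block of the family two or more scales above. -/
theorem AU_excl (H : UForm R o C7 th th' c L good act Fail Cap Ls) {s t a k : ℕ} {x : X}
    (h1 : 1 ≤ s) (hst : s + 2 ≤ t) (ht : t ≤ S.smax) (ha : a < S.na s)
    (hk : k < S.nb s) (hA : R.AU c act o s a x k) :
    ¬ R.AU c act o t (a / 2 ^ (t - s)) x (k / 16 ^ (t - s)) := by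
  intro hB
  have hs : s ≤ S.smax := by omega
  have ha' : a / 2 ^ (t - s) < S.na t := by
    rw [Nat.div_lt_iff_lt_mul (by positivity)]
    have e1 := H241.na_mul S hs
    have e2 := H241.na_mul S ht
    have e3 : S.na t * 2 ^ (t - s) * 2 ^ s = S.na s * 2 ^ s := by
      rw [mul_assoc, ← pow_add, e1, show t - s + s = t by omega, e2]
    have e4 := Nat.eq_of_mul_eq_mul_right (by positivity) e3
    rw [e4]; exact ha
  have hk' : k / 16 ^ (t - s) < S.nb t := by
    rw [Nat.div_lt_iff_lt_mul (by positivity)]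
    have : S.nb s = S.nb t * 16 ^ (t - s) := by
      unfold Sys.nb
      rw [mul_assoc, ← pow_add]; congr 2; omega
    omega
  have h3 := hA.2.2 t hst ht
  have h4 := AU_nuT_le H (by omega) ht ha' hk' hB
  have h5 := (H.act2 t _ x _ (by omega) ht ha' hk' hB.1).1
  have h6 := H.th_pos t
  have h7 : 0 < c t := by
    have := (H.act2 t _ x _ (by omega) ht ha' hk' hB.1).2
    linarith
  simp only at h3
  linarith

/-- Sum over tops and blocks, restricted to the true ranges. -/
theorem TT_mono' {s : ℕ} {f g : ℕ → X → ℕ → ℝ}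
    (h : ∀ a < S.na s, ∀ x, ∀ k < S.nb s, f a x k ≤ g a x k) : S.TT s f ≤ S.TT s g :=
  Finset.sum_le_sum fun a ha => S.E_mono fun x => Finset.sum_le_sum fun k hk =>
    h a (mem_range.1 ha) x k (mem_range.1 hk)

theorem US_bound (H : UForm R o C7 th th' c L good act Fail Cap Ls) {s : ℕ} (h1 : 1 ≤ s) :
    S.TT s (fun a x k => ind (3 / 10 * th s ≤ S.nuT o s a x k ∧
      ¬ S.upst (fun t => 5 / 4 * c t) o s a x k) * S.nuT o s a x k) ≤ S.US o s := by
  refine S.Us_le' (fun t => by have := H.c_nonneg t; linarith) o s (fun t h2 h3 => ?_)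
  have h4 := H.c_th s t h1 h2 h3
  have h5 := H.th_pos s
  linarith

/-- Steps 5 and 8. -/
theorem step58U (H : UForm R o C7 th th' c L good act Fail Cap Ls) {s : ℕ} (h1 : 1 ≤ s)
    (hs : s ≤ S.smax) :
    S.TT s (fun a x k => ind (th s ≤ S.nuT o s a x k ∧ S.nuT o s a x k ≤ th' s) *
      (S.rho o s a x k + S.G s a x (S.b1 o s k))) ≤
    S.TT s (fun a x k => ind (R.AU c act o s a x k) * S.rho o s a x k) +
      6 * S.TT s (fun a x k => S.G s a x (S.b0 o s k)) +
      7 * S.TT s (fun a x k => S.G s a x (S.b1 o s k)) + 5 / 4 * S.US o s := by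
  have hU := US_bound H h1
  have hth := H.th_pos s
  have h2 : S.TT s (fun a x k => ind (th s ≤ S.nuT o s a x k ∧ S.nuT o s a x k ≤ th' s) *
      (S.rho o s a x k + S.G s a x (S.b1 o s k))) ≤
      S.TT s (fun a x k => ((ind (R.AU c act o s a x k) * S.rho o s a x k +
      6 * S.G s a x (S.b0 o s k)) + 7 * S.G s a x (S.b1 o s k)) + 5 / 4 *
        (ind (3 / 10 * th s ≤ S.nuT o s a x k ∧
          ¬ S.upst (fun t => 5 / 4 * c t) o s a x k) * S.nuT o s a x k)) := by
    refine TT_mono' fun a ha x k hk => ?_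
    have hG0 := H241.G_nonneg S hs ha x (S.b0 o s k)
    have hG1 := H241.G_nonneg S hs ha x (S.b1 o s k)
    have hnu := S.nuT_nonneg o s a x k
    have hrho := S.rho_nonneg o s a x k
    have hr := S.rho_eq o s a x k
    have hA : 0 ≤ ind (R.AU c act o s a x k) * S.rho o s a x k :=
      mul_nonneg (ind_nonneg _) hrho
    have hB : 0 ≤ ind (3 / 10 * th s ≤ S.nuT o s a x k ∧
      ¬ S.upst (fun t => 5 / 4 * c t) o s a x k) *
      S.nuT o s a x k := mul_nonneg (ind_nonneg _) hnu
    by_cases hc : th s ≤ S.nuT o s a x k ∧ S.nuT o s a x k ≤ th' s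
    · rw [ind_true hc, one_mul]
      by_cases ht : R.tight o s a x k
      · have h3 := R.tight_m_le hs ha ht
        have h4 := R.tight_le_m hs ha ht
        have hact := H.act1 s a x k h1 hs ha hk (by linarith [hc.1]) (by linarith [hc.2])
        by_cases hu : S.upst (fun t => 5 / 4 * c t) o s a x k
        · have hAA : R.AU c act o s a x k := ⟨hact, ht, hu⟩
          rw [ind_true hAA]
          linarith
        · rw [ind_true (⟨by linarith [hc.1], hu⟩ :
            3 / 10 * th s ≤ S.nuT o s a x k ∧ ¬ S.upst (fun t => 5 / 4 * c t) o s a x k)]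
          linarith
      · have := R.rho_le_of_not_tight ha (H.tau_le s h1 hs) ht hc.1
        linarith
    · rw [ind_false hc, zero_mul]
      positivity
  refine h2.trans ?_
  rw [S.TT_add, S.TT_add, S.TT_add, S.TT_mul_left, S.TT_mul_left, S.TT_mul_left]
  linarith

/-- Steps 7 and 8. -/
theorem step78U (H : UForm R o C7 th th' c L good act Fail Cap Ls) {s : ℕ} (h1 : 1 ≤ s)
    (hs : s ≤ S.smax) :
    S.TT s (fun a x k => ind (act s a x k ∧ ¬ R.AU c act o s a x k) * R.m o s a x k) ≤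
      6 * S.TT s (fun a x k => S.G s a x (S.b0 o s k)) +
      6 * S.TT s (fun a x k => S.G s a x (S.b1 o s k)) + 5 / 4 * S.US o s := by
  have hU := US_bound H h1
  have h2 : S.TT s (fun a x k => ind (act s a x k ∧ ¬ R.AU c act o s a x k) * R.m o s a x k) ≤
      S.TT s (fun a x k => (6 * S.G s a x (S.b0 o s k) + 6 * S.G s a x (S.b1 o s k)) + 5 / 4 *
        (ind (3 / 10 * th s ≤ S.nuT o s a x k ∧
          ¬ S.upst (fun t => 5 / 4 * c t) o s a x k) * S.nuT o s a x k)) := by
    refine TT_mono' fun a ha x k hk => ?_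
    have hG0 := H241.G_nonneg S hs ha x (S.b0 o s k)
    have hG1 := H241.G_nonneg S hs ha x (S.b1 o s k)
    have hnu := S.nuT_nonneg o s a x k
    have hB : 0 ≤ ind (3 / 10 * th s ≤ S.nuT o s a x k ∧
      ¬ S.upst (fun t => 5 / 4 * c t) o s a x k) *
      S.nuT o s a x k := mul_nonneg (ind_nonneg _) hnu
    by_cases hc : act s a x k ∧ ¬ R.AU c act o s a x k
    · rw [ind_true hc, one_mul]
      by_cases ht : R.tight o s a x k
      · have hu : ¬ S.upst (fun t => 5 / 4 * c t) o s a x k := fun hu => hc.2 ⟨hc.1, ht, hu⟩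
        have h3 := AU_th_le H h1 hs ha hk hc.1 ht
        have h4 := R.tight_m_le hs ha ht
        rw [ind_true (⟨h3, hu⟩ :
            3 / 10 * th s ≤ S.nuT o s a x k ∧ ¬ S.upst (fun t => 5 / 4 * c t) o s a x k)]
        linarith
      · have h3 := (H.act2 s a x k h1 hs ha hk hc.1).1
        have h4 := R.m_le (o := o) hs ha x k
        have htau := H.tau_le s h1 hs
        unfold tight at ht
        push Not at ht
        linarith
    · rw [ind_false hc, zero_mul]
      positivity
  refine h2.trans ?_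
  rw [S.TT_add, S.TT_add, S.TT_mul_left, S.TT_mul_left, S.TT_mul_left]
  linarith

/-- Step 9. -/
theorem step9U (H : UForm R o C7 th th' c L good act Fail Cap Ls) {s : ℕ} (h1 : 1 ≤ s)
    (hs : s ≤ S.smax) :
    S.TT s (fun a x k => ind (R.AU c act o s a x k) *
        (S.nuU o s a x k * ind (¬ S.nuU o s a x k ≤ C7 * R.m o s a x k))) ≤
      2 * (Ls s).card * (1 + S.TT s (fun a x k => S.G s a x (S.b1 o s k))) := by
  have h := R.cap_le H.c7 o s (Ls s)
    (fun a x k => a < S.na s ∧ k < S.nb s ∧ R.AU c act o s a x k) (by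
      rintro a x k ⟨ha, hk, hA⟩
      have h4 := R.tight_le_m hs ha hA.2.1
      have hm := H.act2 s a x k h1 hs ha hk hA.1
      have hth := H.th_pos s
      have hc := H.c_le s h1 hs
      obtain ⟨l, h5, h6⟩ := exists_cls (z := R.m o s a x k) (by linarith [hm.1])
        (by linarith [hm.2])
      refine ⟨l, H.cls s l h1 hs (by linarith [hm.1]) ?_, ⟨h5, h6⟩, by linarith [hm.1]⟩
      have h7 := h5
      rw [pow_succ] at h7
      linarith [hm.2])
  refine le_trans (le_of_eq ?_) h
  unfold Sys.TT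
  refine Finset.sum_congr rfl fun a ha => ?_
  have ha' := mem_range.1 ha
  congr 1
  funext x
  refine Finset.sum_congr rfl fun k hk => ?_
  have hk' := mem_range.1 hk
  have he : ind (R.AU c act o s a x k) = ind (a < S.na s ∧ k < S.nb s ∧ R.AU c act o s a x k) :=
    ind_congr ⟨fun h => ⟨ha', hk', h⟩, fun h => h.2.2⟩
  simp only [he]

theorem rho_eq_av (S : Sys X) (o s a : ℕ) (x : X) (k : ℕ) :
    S.rho o s a x k = S.av ((a + 1) * 2 ^ s) (fun y => S.nuU o s a y k) x := by
  unfold Sys.rho Sys.V Sys.nuU Sys.nu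
  exact (S.av_sub _ _ _ _).symm

theorem av_sum' (S : Sys X) {ι : Type} (j : ℕ) (I : Finset ι) (f : ι → X → ℝ) (x : X) :
    S.av j (fun y => ∑ i ∈ I, f i y) x = ∑ i ∈ I, S.av j (f i) x := avg_sum _ _ _ _

theorem avN (S : Sys X) {j : ℕ} {f : X → ℝ} (h : ∀ y, 0 ≤ f y) (x : X) : 0 ≤ S.av j f x :=
  avg_nonneg S.hw x fun y _ => h y

theorem avM (S : Sys X) {j : ℕ} {f g : X → ℝ} (h : ∀ y, f y ≤ g y) (x : X) :
    S.av j f x ≤ S.av j g x :=
  avg_mono S.hw x fun y _ => h y

/-- Step 11 for one top. -/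
theorem step11_pt (H : UForm R o C7 th th' c L good act Fail Cap Ls) {s a : ℕ} (h1 : 1 ≤ s)
    (hs : s ≤ S.smax) (ha : a < S.na s) (x : X) :
    2 ^ s * ∑ k ∈ range (S.nb s), ind (R.AU c act o s a x k) * S.rho o s a x k ≤
      2 * ∑ k ∈ range (S.nb s), ind (R.AU c act o s a x k) *
          ∑ i ∈ range (S.D s), S.G s a x (S.b0 o s k + i) +
      2 ^ s * L s * ∑ k ∈ range (S.nb s), ind (act s a x k ∧ ¬ R.AU c act o s a x k) *
          R.m o s a x k +
      Cap s a x + 2 ^ s * ind (Fail s a x) +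
      2 ^ s * ∑ k ∈ range (S.nb s), ind (R.AU c act o s a x k) *
        S.av ((a + 1) * 2 ^ s) (fun y => S.nuU o s a y k *
          ind (¬ S.nuU o s a y k ≤ C7 * R.m o s a y k)) x +
      2 ^ s * S.av ((a + 1) * 2 ^ s) (fun y => ind (¬ good s a y)) x +
      2 ^ s * ∑ k ∈ range (S.nb s), S.av ((a + 1) * 2 ^ s) (fun y => H241.edge S o s a y k) x := by
  classical
  have p2 : (0 : ℝ) < 2 ^ s := by positivity
  -- nonnegativity of all the terms
  have n1 : 0 ≤ ∑ k ∈ range (S.nb s), ind (R.AU c act o s a x k) *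
          ∑ i ∈ range (S.D s), S.G s a x (S.b0 o s k + i) :=
    Finset.sum_nonneg fun k _ => mul_nonneg (ind_nonneg _)
      (Finset.sum_nonneg fun i _ => H241.G_nonneg S hs ha x _)
  have n2 : 0 ≤ ∑ k ∈ range (S.nb s), ind (act s a x k ∧ ¬ R.AU c act o s a x k) *
          R.m o s a x k :=
    Finset.sum_nonneg fun k _ => mul_nonneg (ind_nonneg _) (R.m_nonneg o s a x k)
  have n3 := H.Cap_nonneg s a x
  have n4 := ind_nonneg (Fail s a x)
  have n5 : 0 ≤ ∑ k ∈ range (S.nb s), ind (R.AU c act o s a x k) *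
        S.av ((a + 1) * 2 ^ s) (fun y => S.nuU o s a y k *
          ind (¬ S.nuU o s a y k ≤ C7 * R.m o s a y k)) x :=
    Finset.sum_nonneg fun k _ => mul_nonneg (ind_nonneg _)
      (avN S (fun y => mul_nonneg (S.nuU_nonneg o s a y k) (ind_nonneg _)) x)
  have n6 : 0 ≤ S.av ((a + 1) * 2 ^ s) (fun y => ind (¬ good s a y)) x :=
    avN S (fun y => ind_nonneg _) x
  have n7 : 0 ≤ ∑ k ∈ range (S.nb s),
      S.av ((a + 1) * 2 ^ s) (fun y => H241.edge S o s a y k) x :=
    Finset.sum_nonneg fun k _ => avN S (fun y => H241.edge_nonneg S o s a y k) x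
  have nL := H.L_nonneg s
  by_cases hF : Fail s a x
  · -- failure: the whole mass is at most one
    have hr : ∑ k ∈ range (S.nb s), ind (R.AU c act o s a x k) * S.rho o s a x k ≤ 1 := by
      calc ∑ k ∈ range (S.nb s), ind (R.AU c act o s a x k) * S.rho o s a x k
          ≤ ∑ k ∈ range (S.nb s), S.rho o s a x k := by
            refine Finset.sum_le_sum fun k _ => ?_
            have h2 := S.rho_nonneg o s a x k
            have h3 := ind_le_one (R.AU c act o s a x k)
            nlinarith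
        _ = S.av ((a + 1) * 2 ^ s) (fun y => ∑ k ∈ range (S.nb s), S.nuU o s a y k) x := by
            rw [av_sum']
            exact Finset.sum_congr rfl fun k _ => rho_eq_av S o s a x k
        _ ≤ S.av ((a + 1) * 2 ^ s) (fun _ => 1) x :=
            avM S (fun y => S.sum_nu_le_one (a * 2 ^ s) y o s (S.nb s)) x
        _ = 1 := S.av_const x (fun _ _ => rfl)
    rw [ind_true hF]
    have h2 := mul_le_mul_of_nonneg_left hr p2.le
    have h3 : 0 ≤ 2 ^ s * L s * ∑ k ∈ range (S.nb s),
        ind (act s a x k ∧ ¬ R.AU c act o s a x k) * R.m o s a x k := by positivity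
    have h5 : 0 ≤ 2 ^ s * ∑ k ∈ range (S.nb s), ind (R.AU c act o s a x k) *
        S.av ((a + 1) * 2 ^ s) (fun y => S.nuU o s a y k *
          ind (¬ S.nuU o s a y k ≤ C7 * R.m o s a y k)) x := mul_nonneg p2.le n5
    have h6 := mul_nonneg p2.le n6
    have h7 := mul_nonneg p2.le n7
    linarith
  · have hb := H.h3b s a x h1 hs ha hF ((range (S.nb s)).filter (fun k => R.AU c act o s a x k))
      (fun k hk => ⟨mem_range.1 (mem_filter.1 hk).1, (mem_filter.1 hk).2.1⟩)
    -- the filtered sums as sums with indicators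
    have hfil : ∀ f : ℕ → ℝ, ∑ k ∈ (range (S.nb s)).filter (fun k => R.AU c act o s a x k), f k =
        ∑ k ∈ range (S.nb s), ind (R.AU c act o s a x k) * f k := by
      intro f
      rw [Finset.sum_filter]
      refine Finset.sum_congr rfl fun k _ => ?_
      by_cases h : R.AU c act o s a x k
      · rw [if_pos h, ind_true h, one_mul]
      · rw [if_neg h, ind_false h, zero_mul]
    have hfil2 : ∑ k ∈ (range (S.nb s)).filter
        (fun k => k ∉ (range (S.nb s)).filter (fun k => R.AU c act o s a x k)),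
        ind (act s a x k) * R.m o s a x k =
        ∑ k ∈ range (S.nb s), ind (act s a x k ∧ ¬ R.AU c act o s a x k) * R.m o s a x k := by
      rw [Finset.sum_filter]
      refine Finset.sum_congr rfl fun k hk => ?_
      by_cases h : R.AU c act o s a x k
      · rw [if_neg (by simp [mem_filter, h, mem_range.1 hk]), ind_false (fun h' => h'.2 h),
          zero_mul]
      · rw [if_pos (by simp [mem_filter, h])]
        rw [ind_congr (⟨fun h' => ⟨h', h⟩, fun h' => h'.1⟩ :
          act s a x k ↔ act s a x k ∧ ¬ R.AU c act o s a x k)]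
    rw [hfil, hfil, hfil2] at hb
    -- one block
    have hblk : ∀ k ∈ range (S.nb s), 2 ^ s * (ind (R.AU c act o s a x k) * S.rho o s a x k) ≤
        ind (R.AU c act o s a x k) * R.lhs C7 good o s a x k +
        2 ^ s * S.av ((a + 1) * 2 ^ s) (fun y => H241.edge S o s a y k) x +
        2 ^ s * (ind (R.AU c act o s a x k) * S.av ((a + 1) * 2 ^ s) (fun y => S.nuU o s a y k *
          ind (¬ S.nuU o s a y k ≤ C7 * R.m o s a y k)) x) +
        2 ^ s * S.av ((a + 1) * 2 ^ s) (fun y => S.nuU o s a y k * ind (¬ good s a y)) x := by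
      intro k _
      have e0 : 0 ≤ S.av ((a + 1) * 2 ^ s) (fun y => H241.edge S o s a y k) x :=
        avN S (fun y => H241.edge_nonneg S o s a y k) x
      have e1 : 0 ≤ S.av ((a + 1) * 2 ^ s) (fun y => S.nuU o s a y k * ind (¬ good s a y)) x :=
        avN S (fun y => mul_nonneg (S.nuU_nonneg o s a y k) (ind_nonneg _)) x
      by_cases h : R.AU c act o s a x k
      · rw [ind_true h, one_mul, one_mul, one_mul]
        have h2 := H241.step10 S R C7 good o s a x k
        have h3 : S.rho o s a x k ≤ S.av ((a + 1) * 2 ^ s) (fun y => S.nuU o s a y k *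
            ind (S.nuU o s a y k ≤ C7 * R.m o s a x k ∧ good s a y)) x +
            S.av ((a + 1) * 2 ^ s) (fun y => S.nuU o s a y k *
              ind (¬ S.nuU o s a y k ≤ C7 * R.m o s a y k)) x +
            S.av ((a + 1) * 2 ^ s) (fun y => S.nuU o s a y k * ind (¬ good s a y)) x := by
          rw [rho_eq_av, ← S.av_add, ← S.av_add]
          unfold Sys.av
          refine avg_mono S.hw x fun y hy => ?_
          have hm : R.m o s a y k = R.m o s a x k := by
            unfold m; rw [R.omMeas s a y x hy]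
          have hn := S.nuU_nonneg o s a y k
          rw [hm]
          by_cases c1 : S.nuU o s a y k ≤ C7 * R.m o s a x k
          · by_cases c2 : good s a y
            · rw [ind_true (⟨c1, c2⟩ : S.nuU o s a y k ≤ C7 * R.m o s a x k ∧ good s a y),
                ind_false (not_not.2 c1), ind_false (not_not.2 c2)]
              linarith
            · rw [ind_true c2]
              have i1 := mul_nonneg hn (ind_nonneg (S.nuU o s a y k ≤ C7 * R.m o s a x k ∧
                good s a y))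
              have i2 := mul_nonneg hn (ind_nonneg (¬ S.nuU o s a y k ≤ C7 * R.m o s a x k))
              linarith
          · rw [ind_true c1]
            have i1 := mul_nonneg hn (ind_nonneg (S.nuU o s a y k ≤ C7 * R.m o s a x k ∧
                good s a y))
            have i2 := mul_nonneg hn (ind_nonneg (¬ good s a y))
            linarith
        have h4 := mul_le_mul_of_nonneg_left h3 p2.le
        linarith
      · rw [ind_false h, zero_mul, zero_mul, zero_mul, mul_zero]
        have h2 := mul_nonneg p2.le e0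
        have h3 := mul_nonneg p2.le e1
        linarith
    have hsum := Finset.sum_le_sum hblk
    rw [← Finset.mul_sum, Finset.sum_add_distrib, Finset.sum_add_distrib,
      Finset.sum_add_distrib, ← Finset.mul_sum, ← Finset.mul_sum, ← Finset.mul_sum] at hsum
    have hgood : ∑ k ∈ range (S.nb s),
        S.av ((a + 1) * 2 ^ s) (fun y => S.nuU o s a y k * ind (¬ good s a y)) x ≤
        S.av ((a + 1) * 2 ^ s) (fun y => ind (¬ good s a y)) x := by
      rw [← av_sum']
      refine avM S (fun y => ?_) x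
      rw [← Finset.sum_mul]
      have h2 : ∑ k ∈ range (S.nb s), S.nuU o s a y k ≤ 1 :=
        S.sum_nu_le_one (a * 2 ^ s) y o s (S.nb s)
      have h3 := ind_nonneg (¬ good s a y)
      nlinarith
    have hgood' := mul_le_mul_of_nonneg_left hgood p2.le
    have h8 := mul_nonneg p2.le n4
    linarith

/-- The error terms of the accounting theorem at scale `s`. -/
noncomputable def errU (S : Sys X) (o : ℕ) (th th' L : ℕ → ℝ) (good : ℕ → ℕ → X → Prop)
    (Fail : ℕ → ℕ → X → Prop) (Cap : ℕ → ℕ → X → ℝ) (Ls : ℕ → Finset ℕ) (s : ℕ) : ℝ :=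
  16 * (th (s - 1) / th' s) * S.n + 2 ^ (s - 1) * H241.GB0 S o (s - 1) +
  2 ^ s * (1 + L s) * (7 * H241.GB0 S o s + 7 * H241.GB1 S o s + 2 * S.US o s) +
  2 * 2 ^ s * (Ls s).card * (1 + H241.GB1 S o s) + 2 ^ s * H241.ED S o s +
  ∑ a ∈ range (S.na s), S.E (Cap s a) +
  2 ^ s * ∑ a ∈ range (S.na s), S.E (fun x => ind (Fail s a x)) +
  2 ^ s * ∑ a ∈ range (S.na s), S.E (fun x => ind (¬ good s a x))

theorem US_nonneg (S : Sys X) (o s : ℕ) : 0 ≤ S.US o s := by
  unfold Sys.US
  refine Finset.sum_nonneg fun t ht => mul_nonneg (by positivity) ?_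
  have : 0 ≤ S.TT t (fun a x k => S.G t a x (S.b1 o t k)) :=
    S.TT_nonneg fun a ha x k => H241.G_nonneg S (mem_Icc.1 ht).2 ha x _
  linarith

/-- Steps 4 to 11 for one scale. -/
theorem scaleU (H : UForm R o C7 th th' c L good act Fail Cap Ls) {s : ℕ} (h1 : 1 ≤ s)
    (hs : s ≤ S.smax) :
    H241.T4 S th th' o s ≤
      2 * ∑ a ∈ range (S.na s), S.E (fun x => ∑ k ∈ range (S.nb s),
        ind (R.AU c act o s a x k) * ∑ i ∈ range (S.D s), S.G s a x (S.b0 o s k + i)) +
      (2 ^ s * (1 + L s) * (7 * H241.GB0 S o s + 7 * H241.GB1 S o s + 2 * S.US o s) +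
      2 * 2 ^ s * (Ls s).card * (1 + H241.GB1 S o s) + 2 ^ s * H241.ED S o s +
      ∑ a ∈ range (S.na s), S.E (Cap s a) +
      2 ^ s * ∑ a ∈ range (S.na s), S.E (fun x => ind (Fail s a x)) +
      2 ^ s * ∑ a ∈ range (S.na s), S.E (fun x => ind (¬ good s a x))) := by
  have p2 : (0 : ℝ) < 2 ^ s := by positivity
  have h4 := H241.step4 S hs th th' o
  have h5 := step58U H h1 hs
  have h7 := step78U H h1 hs
  have h9 := step9U H h1 hs
  have hUS := US_nonneg S o s
  have hL := H.L_nonneg s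
  -- step 11 integrated
  have h11 : 2 ^ s * S.TT s (fun a x k => ind (R.AU c act o s a x k) * S.rho o s a x k) ≤
      2 * ∑ a ∈ range (S.na s), S.E (fun x => ∑ k ∈ range (S.nb s),
        ind (R.AU c act o s a x k) * ∑ i ∈ range (S.D s), S.G s a x (S.b0 o s k + i)) +
      2 ^ s * L s * S.TT s (fun a x k => ind (act s a x k ∧ ¬ R.AU c act o s a x k) *
          R.m o s a x k) +
      ∑ a ∈ range (S.na s), S.E (Cap s a) +
      2 ^ s * ∑ a ∈ range (S.na s), S.E (fun x => ind (Fail s a x)) +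
      2 ^ s * S.TT s (fun a x k => ind (R.AU c act o s a x k) *
        (S.nuU o s a x k * ind (¬ S.nuU o s a x k ≤ C7 * R.m o s a x k))) +
      2 ^ s * ∑ a ∈ range (S.na s), S.E (fun x => ind (¬ good s a x)) +
      2 ^ s * H241.ED S o s := by
    have hpt : ∀ a ∈ range (S.na s),
        2 ^ s * S.E (fun x => ∑ k ∈ range (S.nb s), ind (R.AU c act o s a x k) *
          S.rho o s a x k) ≤
        2 * S.E (fun x => ∑ k ∈ range (S.nb s), ind (R.AU c act o s a x k) *
          ∑ i ∈ range (S.D s), S.G s a x (S.b0 o s k + i)) +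
        2 ^ s * L s * S.E (fun x => ∑ k ∈ range (S.nb s),
          ind (act s a x k ∧ ¬ R.AU c act o s a x k) * R.m o s a x k) +
        S.E (Cap s a) + 2 ^ s * S.E (fun x => ind (Fail s a x)) +
        2 ^ s * S.E (fun x => ∑ k ∈ range (S.nb s), ind (R.AU c act o s a x k) *
          (S.nuU o s a x k * ind (¬ S.nuU o s a x k ≤ C7 * R.m o s a x k))) +
        2 ^ s * S.E (fun x => ind (¬ good s a x)) +
        2 ^ s * S.E (fun x => ∑ k ∈ range (S.nb s),
          S.av ((a + 1) * 2 ^ s) (fun y => H241.edge S o s a y k) x) := by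
      intro a ha
      have h := S.E_mono (fun x => step11_pt H h1 hs (mem_range.1 ha) x)
      simp only [S.E_add, S.E_mul_left] at h
      have e1 : S.E (fun x => ∑ k ∈ range (S.nb s), ind (R.AU c act o s a x k) *
          S.av ((a + 1) * 2 ^ s) (fun y => S.nuU o s a y k *
            ind (¬ S.nuU o s a y k ≤ C7 * R.m o s a y k)) x) =
          S.E (fun x => ∑ k ∈ range (S.nb s), ind (R.AU c act o s a x k) *
          (S.nuU o s a x k * ind (¬ S.nuU o s a x k ≤ C7 * R.m o s a x k))) := by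
        rw [S.E_sum, S.E_sum]
        refine Finset.sum_congr rfl fun k _ => ?_
        exact S.E_pull _ (fun x y hxy => ind_congr (AU_meas H s a y x k hxy))
      have e2 : S.E (fun x => S.av ((a + 1) * 2 ^ s) (fun y => ind (¬ good s a y)) x) =
          S.E (fun x => ind (¬ good s a x)) := S.E_av _ _
      rw [e1, e2] at h
      exact h
    have h := Finset.sum_le_sum hpt
    simp only [Finset.sum_add_distrib, ← Finset.mul_sum] at h
    rw [H241.E_av_edge] at h
    unfold Sys.TT
    linarith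
  -- names of the same quantities
  have g0 : S.TT s (fun a x k => S.G s a x (S.b0 o s k)) = H241.GB0 S o s := rfl
  have g1 : S.TT s (fun a x k => S.G s a x (S.b1 o s k)) = H241.GB1 S o s := rfl
  have n0 := H241.GB0_nonneg S hs o
  have n1 := H241.GB1_nonneg S hs o
  rw [g0, g1] at h5 h7
  rw [g1] at h9
  have h4' : H241.T4 S th th' o s ≤ 2 ^ s * (S.TT s (fun a x k =>
      ind (R.AU c act o s a x k) * S.rho o s a x k) + 6 * H241.GB0 S o s +
      7 * H241.GB1 S o s + 5 / 4 * S.US o s) :=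
    h4.trans (mul_le_mul_of_nonneg_left h5 p2.le)
  have h7' := mul_le_mul_of_nonneg_left h7 (mul_nonneg p2.le hL)
  have h9' := mul_le_mul_of_nonneg_left h9 p2.le
  have k1 : 0 ≤ 2 ^ s * H241.GB0 S o s := by positivity
  have k2 : 0 ≤ 2 ^ s * H241.GB1 S o s := by positivity
  have k3 : 0 ≤ 2 ^ s * S.US o s := by positivity
  have k4 : 0 ≤ 2 ^ s * L s * H241.GB0 S o s := by positivity
  have k5 : 0 ≤ 2 ^ s * L s * H241.GB1 S o s := by positivity
  have k6 : 0 ≤ 2 ^ s * L s * S.US o s := by positivity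
  nlinarith [h4', h11, h7', h9', k1, k2, k3, k4, k5, k6]

/-- **Accounting theorem, one offset, union form.** -/
theorem thmA (H : UForm R o C7 th th' c L good act Fail Cap Ls) :
    ∑ j ∈ range S.n, S.E (fun x => S.e j x o) ≤
      4 * S.Gam + H241.T0 S th o +
      (S.n * (S.nb S.smax * th S.smax) + 2 ^ S.smax * H241.GB0 S o S.smax) +
      ∑ s ∈ Icc 1 S.smax, errU S o th th' L good Fail Cap Ls s := by
  have h0 := H241.mass_o S th th' o
  have h2 := H241.step2 S (H.th_pos S.smax).le o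
  have h3 : ∀ s ∈ Icc 1 S.smax, H241.T3 S th th' o s ≤
      16 * (th (s - 1) / th' s) * S.n + 2 ^ (s - 1) * H241.GB0 S o (s - 1) := by
    intro s hs
    obtain ⟨k1, k2⟩ := mem_Icc.1 hs
    obtain ⟨r, rfl⟩ : ∃ r, s = r + 1 := ⟨s - 1, by omega⟩
    exact H241.step3 S k2 (H.th_pos r).le (H.th'_pos (r + 1)) o
  have h4 : ∀ s ∈ Icc 1 S.smax, H241.T4 S th th' o s ≤ _ := fun s hs =>
    scaleU H (mem_Icc.1 hs).1 (mem_Icc.1 hs).2
  have h6 := H295.step6 S o (Icc 1 S.smax) (fun s hs => (mem_Icc.1 hs).2)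
    (fun s a x k => R.AU c act o s a x k) (fun s _ a x y k h => AU_meas H s a x y k h)
    (fun s hs t ht hst a ha x k hk hA =>
      AU_excl H (mem_Icc.1 hs).1 hst (mem_Icc.1 ht).2 ha hk hA)
  have h34 := Finset.sum_le_sum (fun s hs => add_le_add (h3 s hs) (h4 s hs))
  have h8 : ∑ s ∈ Icc 1 S.smax, (16 * (th (s - 1) / th' s) * S.n +
      2 ^ (s - 1) * H241.GB0 S o (s - 1) +
      (2 * ∑ a ∈ range (S.na s), S.E (fun x => ∑ k ∈ range (S.nb s),
        ind (R.AU c act o s a x k) * ∑ i ∈ range (S.D s), S.G s a x (S.b0 o s k + i)) +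
      (2 ^ s * (1 + L s) * (7 * H241.GB0 S o s + 7 * H241.GB1 S o s + 2 * S.US o s) +
      2 * 2 ^ s * (Ls s).card * (1 + H241.GB1 S o s) + 2 ^ s * H241.ED S o s +
      ∑ a ∈ range (S.na s), S.E (Cap s a) +
      2 ^ s * ∑ a ∈ range (S.na s), S.E (fun x => ind (Fail s a x)) +
      2 ^ s * ∑ a ∈ range (S.na s), S.E (fun x => ind (¬ good s a x))))) =
      2 * ∑ s ∈ Icc 1 S.smax, ∑ a ∈ range (S.na s), S.E (fun x => ∑ k ∈ range (S.nb s),
        ind (R.AU c act o s a x k) * ∑ i ∈ range (S.D s), S.G s a x (S.b0 o s k + i)) +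
      ∑ s ∈ Icc 1 S.smax, errU S o th th' L good Fail Cap Ls s := by
    rw [Finset.mul_sum, ← Finset.sum_add_distrib]
    refine Finset.sum_congr rfl fun s _ => ?_
    unfold errU
    ring
  rw [h8] at h34
  linarith

end Mach

end Vale.Agent.P315.Acc
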